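import Mathlib

open Matrix

noncomputable section

namespace Vale.Agent.P252

variable {ι : Type*} [Fintype ι] [DecidableEq ι]

def MM (p e : ι → ℝ) (α β γ δ : ℝ) : Matrix ι ι ℝ :=
  α • (1 : Matrix ι ι ℝ) + β • vecMulVec p p + γ • (vecMulVec p e + vecMulVec e p) +
    (δ - α) • vecMulVec e e

omit [Fintype ι] in
theorem MM_apply (p e : ι → ℝ) (α β γ δ : ℝ) (i j : ι) :
    MM p e α β γ δ i j = α * (if i = j then 1 else 0) + β * (p i * p j) +
      γ * (p i * e j + e i * p j) + (δ - α) * (e i * e j) := by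
  simp [MM, vecMulVec_apply, one_apply, mul_add]

omit [Fintype ι] in
theorem MM_symm (p e : ι → ℝ) (α β γ δ : ℝ) (i j : ι) :
    MM p e α β γ δ i j = MM p e α β γ δ j i := by
  simp only [MM_apply, eq_comm (a := i)]; ring

variable {p e : ι → ℝ} {ρ : ℝ}

theorem MM_mul (hpp : p ⬝ᵥ p = ρ) (hpe : p ⬝ᵥ e = 0) (hee : e ⬝ᵥ e = 1)
    (α β γ δ α' β' γ' δ' : ℝ) :
    MM p e α β γ δ * MM p e α' β' γ' δ' =
      (α * α') • (1 : Matrix ι ι ℝ) + (α * β' + β * α' + β * β' * ρ + γ * γ') • vecMulVec p p +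
      ((α + β * ρ) * γ' + γ * δ') • vecMulVec p e + (γ * (α' + β' * ρ) + δ * γ') • vecMulVec e p +
      (γ * γ' * ρ + δ * δ' - α * α') • vecMulVec e e := by
  have hep : e ⬝ᵥ p = 0 := by rw [dotProduct_comm, hpe]
  simp only [MM, Matrix.add_mul, Matrix.mul_add, Matrix.smul_mul, Matrix.mul_smul, Matrix.one_mul,
    Matrix.mul_one, vecMulVec_mul_vecMulVec, hpp, hpe, hee, hep]
  ext i j
  simp only [Matrix.add_apply, Matrix.smul_apply, vecMulVec_apply, smul_eq_mul, Pi.smul_apply]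
  ring

theorem MM_inv (hpp : p ⬝ᵥ p = ρ) (hpe : p ⬝ᵥ e = 0) (hee : e ⬝ᵥ e = 1)
    {α β γ δ Δ : ℝ} (hα : α ≠ 0) (hΔ : Δ ≠ 0) (hD : Δ = (α + β * ρ) * δ - γ ^ 2 * ρ) :
    (MM p e α β γ δ)⁻¹ =
      MM p e α⁻¹ ((γ ^ 2 - β * δ) / (α * Δ)) (-γ / Δ) ((α + β * ρ) / Δ) := by
  apply Matrix.inv_eq_right_inv
  rw [MM_mul hpp hpe hee]
  have h1 : α * ((γ ^ 2 - β * δ) / (α * Δ)) + β * α⁻¹ + β * ((γ ^ 2 - β * δ) / (α * Δ)) * ρ +
      γ * (-γ / Δ) = 0 := by field_simp; rw [hD]; ring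
  have h2 : (α + β * ρ) * (-γ / Δ) + γ * ((α + β * ρ) / Δ) = 0 := by ring
  have h3 : γ * (α⁻¹ + (γ ^ 2 - β * δ) / (α * Δ) * ρ) + δ * (-γ / Δ) = 0 := by
    field_simp; rw [hD]; ring
  have h4 : γ * (-γ / Δ) * ρ + δ * ((α + β * ρ) / Δ) - α * α⁻¹ = 0 := by
    field_simp; rw [hD]; ring
  rw [h1, h2, h3, h4, mul_inv_cancel₀ hα]
  simp

theorem MM_sum (hpp : p ⬝ᵥ p = ρ) (hpe : p ⬝ᵥ e = 0) (hee : e ⬝ᵥ e = 1)
    (α β γ δ α' β' γ' δ' : ℝ) :
    ∑ i, ∑ j, MM p e α β γ δ i j * MM p e α' β' γ' δ' i j =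
      ((Fintype.card ι : ℝ) - 2) * (α * α') + (α + β * ρ) * (α' + β' * ρ) + 2 * γ * γ' * ρ +
        δ * δ' := by
  have hep : e ⬝ᵥ p = 0 := by rw [dotProduct_comm, hpe]
  have : ∑ i, ∑ j, MM p e α β γ δ i j * MM p e α' β' γ' δ' i j =
      trace (MM p e α β γ δ * MM p e α' β' γ' δ') := by
    simp only [trace, diag_apply, Matrix.mul_apply]
    refine Finset.sum_congr rfl fun i _ => Finset.sum_congr rfl fun j _ => ?_
    rw [MM_symm p e α' β' γ' δ' i j]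
  rw [this, MM_mul hpp hpe hee]
  simp only [trace_add, trace_smul, trace_one, trace_vecMulVec, hpp, hpe, hep, hee, smul_eq_mul]
  ring

theorem MM_det (hpp : p ⬝ᵥ p = ρ) (hpe : p ⬝ᵥ e = 0) (hee : e ⬝ᵥ e = 1)
    {α β γ δ : ℝ} (hα : α ≠ 0) {k : ℕ} (hk : Fintype.card ι = k + 2) :
    (MM p e α β γ δ).det = α ^ k * ((α + β * ρ) * δ - γ ^ 2 * ρ) := by
  have hep : e ⬝ᵥ p = 0 := by rw [dotProduct_comm, hpe]
  let A : Matrix ι (Fin 2) ℝ := of fun i a => ![p, e] a i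
  let B : Matrix (Fin 2) ι ℝ := of ![(β / α) • p + (γ / α) • e, (γ / α) • p + ((δ - α) / α) • e]
  have h1 : MM p e α β γ δ = α • (1 + A * B) := by
    ext i j
    simp only [MM_apply, A, B, Matrix.smul_apply, Matrix.add_apply, Matrix.mul_apply, Fin.sum_univ_two, of_apply,
      one_apply, smul_eq_mul, cons_val_zero, cons_val_one, Pi.add_apply, Pi.smul_apply]
    field_simp
    ring
  have h2 : ∀ a b, (B * A) a b = B a ⬝ᵥ ![p, e] b := fun a b => rfl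
  have b0 : B 0 = (β / α) • p + (γ / α) • e := rfl
  have b1 : B 1 = (γ / α) • p + ((δ - α) / α) • e := rfl
  rw [h1, det_smul, det_one_add_mul_comm, det_fin_two, hk]
  simp only [Matrix.add_apply, h2, b0, b1, cons_val_zero, cons_val_one, add_dotProduct,
    smul_dotProduct, hpp, hpe, hep, hee, smul_eq_mul, one_apply_eq, one_apply_ne, ne_eq,
    zero_ne_one, one_ne_zero, not_false_eq_true]
  field_simp
  ring

theorem MM_posDef (hpp : p ⬝ᵥ p = ρ) (hpe : p ⬝ᵥ e = 0) (hee : e ⬝ᵥ e = 1)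
    {α β γ δ : ℝ} (hα : 0 < α) (hδ : 0 < δ) (hΔ : 0 < (α + β * ρ) * δ - γ ^ 2 * ρ) :
    (MM p e α β γ δ).PosDef := by
  have hep : e ⬝ᵥ p = 0 := by rw [dotProduct_comm, hpe]
  rw [Matrix.posDef_iff_dotProduct_mulVec]
  refine ⟨?_, fun ξ hξ => ?_⟩
  · ext i j
    simp only [conjTranspose_apply, star_trivial]
    exact MM_symm _ _ _ _ _ _ _ _
  · set s := p ⬝ᵥ ξ with hs
    set τ := e ⬝ᵥ ξ with hτ
    set η := ξ - τ • e with hη
    have h1 : η ⬝ᵥ η = ξ ⬝ᵥ ξ - τ ^ 2 := by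
      simp only [hη, sub_dotProduct, dotProduct_sub, smul_dotProduct, dotProduct_smul, hee,
        smul_eq_mul, dotProduct_comm ξ e, ← hτ]
      ring
    have h2 : p ⬝ᵥ η = s := by
      simp only [hη, dotProduct_sub, dotProduct_smul, hpe, smul_eq_mul, ← hs]; ring
    have h3 : s ^ 2 ≤ ρ * (η ⬝ᵥ η) := by
      rw [← h2, ← hpp]
      simpa [dotProduct, pow_two] using Finset.sum_mul_sq_le_sq_mul_sq Finset.univ p η
    have h4 : star ξ ⬝ᵥ MM p e α β γ δ *ᵥ ξ =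
        α * (η ⬝ᵥ η) + β * s ^ 2 + 2 * γ * s * τ + δ * τ ^ 2 := by
      simp only [star_trivial, MM, add_mulVec, smul_mulVec, one_mulVec, vecMulVec_mulVec,
        dotProduct_add, dotProduct_smul, smul_eq_mul, h1, dotProduct_comm ξ e, dotProduct_comm ξ p,
        ← hs, ← hτ, op_smul_eq_smul]
      ring
    rw [h4]
    have hN : 0 ≤ η ⬝ᵥ η := Finset.sum_nonneg fun i _ => mul_self_nonneg _
    rcases hN.eq_or_lt with h0 | hpos
    · have hs0 : s = 0 := by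
        rw [← h0] at h3
        nlinarith
      have hη0 : η = 0 := dotProduct_self_eq_zero.1 h0.symm
      have hτ0 : τ ≠ 0 := by
        intro h
        apply hξ
        rw [hη, h, zero_smul, sub_zero] at hη0
        exact hη0
      rw [← h0, hs0]
      have := mul_pos hδ (sq_pos_of_ne_zero hτ0)
      linarith
    · have key : 0 < δ * (α * (η ⬝ᵥ η) + β * s ^ 2 + 2 * γ * s * τ + δ * τ ^ 2) := by
        have e1 : δ * (α * (η ⬝ᵥ η) + β * s ^ 2 + 2 * γ * s * τ + δ * τ ^ 2) =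
            α * δ * (η ⬝ᵥ η) + (β * δ - γ ^ 2) * s ^ 2 + (γ * s + δ * τ) ^ 2 := by ring
        rw [e1]
        have := sq_nonneg (γ * s + δ * τ)
        rcases le_total 0 (β * δ - γ ^ 2) with h | h
        · have := mul_nonneg h (sq_nonneg s)
          have := mul_pos (mul_pos hα hδ) hpos
          linarith
        · have := mul_le_mul_of_nonpos_left h3 h
          have := mul_pos hΔ hpos
          nlinarith
      exact (mul_pos_iff_of_pos_left hδ).1 key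

end Vale.Agent.P252
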