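import Vale.Agent.P252.Defs
import Vale.Agent.P252.Mat

open Matrix
open scoped ContDiff

noncomputable section

namespace Vale.Agent.P252

variable {m : ℕ}

def e0 : Fin (m + 1) → ℝ := Pi.single 0 1

def xh (x : Fin (m + 1) → ℝ) : Fin (m + 1) → ℝ := x - x 0 • e0

def rho (x : Fin (m + 1) → ℝ) : ℝ := xh x ⬝ᵥ xh x

theorem e0_e0 : (e0 : Fin (m + 1) → ℝ) ⬝ᵥ e0 = 1 := by simp [e0]

theorem xh_e0 (x : Fin (m + 1) → ℝ) : xh x ⬝ᵥ e0 = 0 := by
  simp [xh, e0]

theorem rho_nonneg (x : Fin (m + 1) → ℝ) : 0 ≤ rho x :=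
  Finset.sum_nonneg (s := Finset.univ) fun i _ => mul_self_nonneg (xh x i)

theorem contDiff_rho : ContDiff ℝ ∞ (rho : (Fin (m + 1) → ℝ) → ℝ) := by
  unfold rho xh dotProduct
  simp only [Pi.sub_apply, Pi.smul_apply, smul_eq_mul]
  fun_prop

def pr (i : Fin (m + 1)) : (Fin (m + 1) → ℝ) →L[ℝ] ℝ := ContinuousLinearMap.proj i

theorem pr_single (i j : Fin (m + 1)) : pr j (Pi.single i 1) = if i = j then 1 else 0 := by
  simp [pr, Pi.single_apply, eq_comm]

theorem pr0_single (i : Fin (m + 1)) : pr 0 (Pi.single i 1) = e0 i := by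
  simp [pr, e0, Pi.single_apply, eq_comm]

theorem hasF_xh (j : Fin (m + 1)) (x : Fin (m + 1) → ℝ) :
    HasFDerivAt (fun x => xh x j) (pr j - e0 j • pr 0) x := by
  have : (fun x : Fin (m + 1) → ℝ => xh x j) = (pr j - e0 j • pr 0 : _ →L[ℝ] ℝ) := by
    funext x; simp [xh, pr, mul_comm]
  rw [this]
  exact ContinuousLinearMap.hasFDerivAt _

def Lr (x : Fin (m + 1) → ℝ) : (Fin (m + 1) → ℝ) →L[ℝ] ℝ :=
  ∑ j, (xh x j • (pr j - e0 j • pr 0) + xh x j • (pr j - e0 j • pr 0))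

theorem hasF_rho (x : Fin (m + 1) → ℝ) : HasFDerivAt rho (Lr x) x :=
  HasFDerivAt.fun_sum (u := Finset.univ) fun j _ => (hasF_xh j x).mul (hasF_xh j x)

theorem Lr_single (x : Fin (m + 1) → ℝ) (i : Fin (m + 1)) : Lr x (Pi.single i 1) = 2 * xh x i := by
  have h := xh_e0 x
  simp only [dotProduct] at h
  simp only [Lr, _root_.sum_apply, _root_.add_apply,
    _root_.smul_apply, _root_.sub_apply, pr_single i, smul_eq_mul,
    Finset.sum_add_distrib, mul_sub, Finset.sum_sub_distrib, ← mul_assoc, ← Finset.sum_mul, h]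
  simp
  ring

/-- `φ` has radial derivative `A` and vertical derivative `B`. -/
def HasD (φ A B : (Fin (m + 1) → ℝ) → ℝ) : Prop :=
  ∀ x, HasFDerivAt φ (A x • Lr x + B x • pr 0) x

variable {φ A B ψ C D : (Fin (m + 1) → ℝ) → ℝ}

theorem HasD.congr (h : HasD φ A B) (h1 : ∀ x, A x = C x) (h2 : ∀ x, B x = D x) : HasD φ C D := by
  rwa [← funext h1, ← funext h2]

theorem HasD.rad {g g' : ℝ → ℝ} (h : ∀ ρ, 0 ≤ ρ → HasDerivAt g (g' ρ) ρ) :
    HasD (fun x : Fin (m + 1) → ℝ => g (rho x)) (fun x => g' (rho x)) (fun _ => 0) := by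
  intro x
  refine ((h _ (rho_nonneg x)).comp_hasFDerivAt x (hasF_rho x)).congr_fderiv ?_
  simp

theorem HasD.vert : HasD (fun x : Fin (m + 1) → ℝ => x 0) (fun _ => 0) (fun _ => 1) := by
  intro x
  refine ((pr (0 : Fin (m + 1))).hasFDerivAt (x := x)).congr_fderiv ?_
  simp

theorem HasD.add (h : HasD φ A B) (h' : HasD ψ C D) :
    HasD (fun x => φ x + ψ x) (fun x => A x + C x) (fun x => B x + D x) := by
  intro x
  refine ((h x).add (h' x)).congr_fderiv ?_
  module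

theorem HasD.mul (h : HasD φ A B) (h' : HasD ψ C D) :
    HasD (fun x => φ x * ψ x) (fun x => A x * ψ x + φ x * C x) (fun x => B x * ψ x + φ x * D x) := by
  intro x
  refine ((h x).mul (h' x)).congr_fderiv ?_
  module

theorem HasD.const_mul (c : ℝ) (h : HasD φ A B) :
    HasD (fun x => c * φ x) (fun x => c * A x) (fun x => c * B x) := by
  intro x
  refine ((h x).const_mul c).congr_fderiv ?_
  module

theorem HasD.comp {g : ℝ → ℝ} {g' : (Fin (m + 1) → ℝ) → ℝ} (h : HasD φ A B)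
    (hg : ∀ x, HasDerivAt g (g' x) (φ x)) :
    HasD (fun x => g (φ x)) (fun x => g' x * A x) (fun x => g' x * B x) := by
  intro x
  refine ((hg x).comp_hasFDerivAt x (h x)).congr_fderiv ?_
  module

theorem HasD.pd_eq (h : HasD φ A B) (j : Fin (m + 1)) :
    pd j φ = fun x => A x * (2 * xh x j) + B x * e0 j := by
  funext x
  simp only [pd, (h x).fderiv, _root_.add_apply, _root_.smul_apply,
    Lr_single, pr0_single, smul_eq_mul]

theorem HasD.hess_eq {A₁ A₂ B₂ : (Fin (m + 1) → ℝ) → ℝ} (h : HasD φ A B) (h1 : HasD A A₁ A₂)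
    (h2 : HasD B A₂ B₂) (x : Fin (m + 1) → ℝ) :
    hess φ x = MM (xh x) e0 (2 * A x) (4 * A₁ x) (2 * A₂ x) (B₂ x) := by
  ext i j
  rw [MM_apply, hess, of_apply, h.pd_eq j, pd]
  have := ((h1 x).mul ((hasF_xh j x).const_mul 2)).add ((h2 x).mul_const (e0 j))
  rw [HasFDerivAt.fderiv (f := fun x => A x * (2 * xh x j) + B x * e0 j) this]
  simp only [_root_.add_apply, _root_.smul_apply,
    _root_.sub_apply, Lr_single, pr0_single, smul_eq_mul]
  rw [pr_single]
  ring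

end Vale.Agent.P252
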