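import Mathlib

noncomputable section

namespace Vale.Agent.P252

/-- The `i`-th coordinate derivative `∂_i u` of a function on `ℝ^n`. -/
def pd {n : ℕ} (i : Fin n) (u : (Fin n → ℝ) → ℝ) (x : Fin n → ℝ) : ℝ :=
  fderiv ℝ u x (Pi.single i 1)

/-- The Hessian matrix `D²u(x)`, with entries `∂_i ∂_j u (x)`. -/
def hess {n : ℕ} (u : (Fin n → ℝ) → ℝ) (x : Fin n → ℝ) : Matrix (Fin n) (Fin n) ℝ :=
  Matrix.of fun i j => pd i (pd j u) x

end Vale.Agent.P252
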