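import Vale.Agent.P252.Local

open scoped Topology ContDiff NNReal
open Set Filter

noncomputable section

namespace Vale.Agent.P252

theorem global_exists {E : Type*} [NormedAddCommGroup E] [NormedSpace ℝ E] [CompleteSpace E]
    (W : E → E) {K L : ℝ≥0} (hK : LipschitzWith K W) (hL : ∀ x, ‖W x‖ ≤ L) (t₀ : ℝ) (x₀ : E) :
    ∃ α : ℝ → E, α t₀ = x₀ ∧ ∀ t, HasDerivAt α (W (α t)) t := by
  have h : ∀ N : ℝ≥0, ∃ α : ℝ → E, α t₀ = x₀ ∧
      ∀ t ∈ Ioo (t₀ - N) (t₀ + N), HasDerivAt α (W (α t)) t := by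
    intro N
    have hN : (0 : ℝ) ≤ N := N.2
    have hp : IsPicardLindelof (fun _ => W) (tmin := t₀ - N) (tmax := t₀ + N)
        ⟨t₀, by constructor <;> linarith⟩ x₀ (L * N) 0 L K :=
      IsPicardLindelof.of_time_independent (fun x _ => hL x) hK.lipschitzOnWith (by simp)
    obtain ⟨α, h0, h1⟩ := hp.exists_eq_forall_mem_Icc_hasDerivWithinAt₀
    exact ⟨α, h0, fun t ht => (h1 t (Ioo_subset_Icc_self ht)).hasDerivAt (Icc_mem_nhds ht.1 ht.2)⟩
  choose β hβ0 hβ using h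
  have huniq : ∀ N M : ℝ≥0, 0 < N → N ≤ M → EqOn (β N) (β M) (Ioo (t₀ - N) (t₀ + N)) := by
    intro N M hN hNM
    have hN' : (0 : ℝ) < N := hN
    have hNM' : (N : ℝ) ≤ M := hNM
    refine ODE_solution_unique_of_mem_Ioo (v := fun _ => W) (s := fun _ => univ) (K := K)
      (t₀ := t₀) (fun _ _ => hK.lipschitzOnWith) ⟨by linarith, by linarith⟩
      (fun t ht => ⟨hβ N t ht, trivial⟩)
      (fun t ht => ⟨hβ M t ⟨by linarith [ht.1], by linarith [ht.2]⟩, trivial⟩) ?_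
    rw [hβ0, hβ0]
  let N : ℝ → ℝ≥0 := fun t => ⟨|t - t₀| + 1, by positivity⟩
  have hNc : ∀ t, (N t : ℝ) = |t - t₀| + 1 := fun t => rfl
  have hNpos : ∀ t, 0 < N t := fun t => by
    have : (0 : ℝ) < N t := by rw [hNc]; positivity
    exact this
  have hmem : ∀ t, t ∈ Ioo (t₀ - N t) (t₀ + N t) := fun t => by
    rw [hNc]
    constructor
    · linarith [neg_abs_le (t - t₀)]
    · linarith [le_abs_self (t - t₀)]
  refine ⟨fun t => β (N t) t, hβ0 _, fun t => ?_⟩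
  have heq : (fun s => β (N s) s) =ᶠ[𝓝 t] β (N t + 1) := by
    filter_upwards [Metric.ball_mem_nhds t one_pos] with s hs
    refine huniq _ _ (hNpos s) ?_ (hmem s)
    have : (N s : ℝ) ≤ N t + 1 := by
      rw [hNc, hNc]
      have h1 : |s - t| < 1 := by simpa [Real.dist_eq] using hs
      have h2 := abs_sub_le s t t₀
      linarith
    exact_mod_cast this
  have h1 : β (N t) t = β (N t + 1) t := heq.eq_of_nhds
  show HasDerivAt _ (W (β (N t) t)) t
  rw [h1]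
  refine (hβ (N t + 1) t ?_).congr_of_eventuallyEq heq
  have := hmem t
  push_cast
  constructor <;> linarith [this.1, this.2]

theorem barrier {x x' : ℝ → ℝ} {c t₀ : ℝ} (hx : ∀ t, HasDerivAt x (x' t) t)
    (h0 : x t₀ ≤ c) (hb : ∀ t, c ≤ x t → x' t ≤ 0) {t : ℝ} (ht : t₀ ≤ t) : x t ≤ c := by
  have key : ∀ ε > 0, x t ≤ c + ε * (t - t₀) := by
    intro ε hε
    refine image_le_of_deriv_right_lt_deriv_boundary (f := x) (f' := x') (a := t₀) (b := t)
      (fun s _ => (hx s).continuousAt.continuousWithinAt) (fun s _ => (hx s).hasDerivWithinAt)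
      (B := fun s => c + ε * (s - t₀)) (B' := fun _ => ε) (by simpa using h0) (fun s => ?_)
      (fun s hs he => ?_) ⟨ht, le_rfl⟩
    · simpa using (((hasDerivAt_id s).sub_const t₀).const_mul ε).const_add c
    · have : 0 ≤ ε * (s - t₀) := mul_nonneg hε.le (by linarith [hs.1])
      exact lt_of_le_of_lt (hb s (by linarith)) hε
  apply le_of_forall_pos_le_add
  intro η hη
  have := key (η / (t - t₀ + 1)) (by apply div_pos hη; linarith)
  refine this.trans ?_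
  have h2 : η / (t - t₀ + 1) * (t - t₀) ≤ η := by
    rw [div_mul_eq_mul_div, div_le_iff₀ (by linarith)]
    nlinarith
  linarith

theorem smooth_of_ode {E : Type*} [NormedAddCommGroup E] [NormedSpace ℝ E]
    {W : E → E} (hW : ContDiff ℝ ∞ W) {α : ℝ → E} (h : ∀ t, HasDerivAt α (W (α t)) t) :
    ContDiff ℝ ∞ α := by
  rw [contDiff_infty]
  intro k
  induction k with
  | zero => simpa using continuous_iff_continuousAt.2 fun t => (h t).continuousAt
  | succ k ih =>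
    push_cast
    rw [contDiff_succ_iff_deriv]
    refine ⟨fun t => (h t).differentiableAt, by simp, ?_⟩
    have : deriv α = W ∘ α := funext fun t => (h t).deriv
    rw [this]
    exact (contDiff_infty.1 hW k).comp ih

theorem lip_clamp (c : ℝ) (hc : 0 < c) :
    LipschitzWith (NNReal.mk c hc.le) (fun x => min (Real.exp x) c) := by
  have h1 : LipschitzOnWith (NNReal.mk c hc.le) Real.exp (Iic (Real.log c)) := by
    apply (convex_Iic _).lipschitzOnWith_of_nnnorm_hasDerivWithin_le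
      (fun x _ => (Real.hasDerivAt_exp x).hasDerivWithinAt)
    intro x hx
    rw [← NNReal.coe_le_coe]
    simp only [coe_nnnorm, Real.norm_eq_abs, NNReal.coe_mk, abs_of_pos (Real.exp_pos x)]
    exact (Real.le_log_iff_exp_le hc).1 hx
  have h2 : (fun x => min (Real.exp x) c) = Real.exp ∘ fun x => min x (Real.log c) := by
    funext x
    simp only [Function.comp]
    rw [Real.exp_monotone.map_min, Real.exp_log hc]
  rw [h2, ← lipschitzOnWith_univ]
  have h3 : LipschitzWith 1 fun x : ℝ => min x (Real.log c) := LipschitzWith.id.min_const _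
  have := h1.comp (h3.lipschitzOnWith (s := univ)) (fun x _ => mem_Iic.2 (min_le_right _ _))
  simpa using this

def N0 (n : ℕ) (p v : ℝ) : ℝ :=
  ((n : ℝ) - 1) * (1 - v) + p + ((n : ℝ) + 2) * p * (v - 1 / 2) / (((n : ℝ) - 1) / 2 + p)

def W0 (n : ℕ) (q : ℝ × ℝ) : ℝ × ℝ := ((1 + q.2 - q.1) / 2, N0 n q.1 q.2 / 2)

def clamp (q : ℝ × ℝ) : ℝ × ℝ := (min (Real.exp q.1) (9 / 2), min (Real.exp q.2) (7 / 2))

theorem clamp_mem (q : ℝ × ℝ) : clamp q ∈ Icc (0 : ℝ) (9 / 2) ×ˢ Icc (0 : ℝ) (7 / 2) :=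
  ⟨⟨le_min (Real.exp_pos _).le (by norm_num), min_le_right _ _⟩,
    ⟨le_min (Real.exp_pos _).le (by norm_num), min_le_right _ _⟩⟩

theorem W0_contDiffAt (n : ℕ) (hn : 10 ≤ n) (q : ℝ × ℝ) (hq : 0 ≤ q.1) :
    ContDiffAt ℝ ∞ (W0 n) q := by
  have hn' : (10 : ℝ) ≤ n := by exact_mod_cast hn
  have hne : ((n : ℝ) - 1) / 2 + q.1 ≠ 0 := by linarith
  unfold W0 N0
  fun_prop (disch := assumption)

theorem N0_nonpos (n : ℕ) (hn : 10 ≤ n) (p : ℝ) (h0 : 0 ≤ p) (h1 : p ≤ 9 / 2) :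
    N0 n p (7 / 2) ≤ 0 := by
  have hn' : (10 : ℝ) ≤ n := by exact_mod_cast hn
  have hpos : 0 < ((n : ℝ) - 1) / 2 + p := by linarith
  have : ((n : ℝ) + 2) * p * (7 / 2 - 1 / 2) / (((n : ℝ) - 1) / 2 + p) ≤
      5 / 2 * ((n : ℝ) - 1) - p := by
    rw [div_le_iff₀ hpos]
    obtain ⟨k, hk, e⟩ : ∃ k : ℝ, 0 ≤ k ∧ (n : ℝ) = 10 + k := ⟨n - 10, by linarith, by ring⟩
    obtain ⟨d, hd, e2⟩ : ∃ d : ℝ, 0 ≤ d ∧ p = 9 / 2 - d := ⟨9 / 2 - p, by linarith, by ring⟩
    rw [e, e2]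
    have hd2 : d ≤ 9 / 2 := by linarith
    nlinarith [mul_nonneg hk hd, sq_nonneg k, mul_nonneg hd (sub_nonneg.2 hd2)]
  unfold N0
  linarith

theorem global_curve (n : ℕ) (hn : 10 ≤ n) (s₁ : ℝ) (q₁ : ℝ × ℝ) :
    ∃ K : ℝ≥0, LipschitzWith K (W0 n ∘ clamp) ∧ ∃ α : ℝ → ℝ × ℝ, α s₁ = q₁ ∧
      (∀ s, HasDerivAt α ((W0 n ∘ clamp) (α s)) s) ∧
      (Real.exp q₁.1 ≤ 9 / 2 → Real.exp q₁.2 ≤ 7 / 2 → ∀ s, s₁ ≤ s →
        Real.exp (α s).1 ≤ 9 / 2 ∧ Real.exp (α s).2 ≤ 7 / 2) := by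
  have hcomp : IsCompact (Icc (0 : ℝ) (9 / 2) ×ˢ Icc (0 : ℝ) (7 / 2)) :=
    isCompact_Icc.prod isCompact_Icc
  have hcd : ContDiffOn ℝ ∞ (W0 n) (Icc (0 : ℝ) (9 / 2) ×ˢ Icc (0 : ℝ) (7 / 2)) :=
    fun q hq => (W0_contDiffAt n hn q hq.1.1).contDiffWithinAt
  obtain ⟨K, hK⟩ := hcd.exists_lipschitzOnWith (by simp)
    ((convex_Icc _ _).prod (convex_Icc _ _)) hcomp
  obtain ⟨L, hL⟩ := hcomp.exists_bound_of_continuousOn hcd.continuousOn
  have hcl : ∃ K', LipschitzWith K' clamp :=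
    ⟨_, ((lip_clamp (9 / 2) (by norm_num)).comp LipschitzWith.prod_fst).prodMk
      ((lip_clamp (7 / 2) (by norm_num)).comp LipschitzWith.prod_snd)⟩
  obtain ⟨K', hK'⟩ := hcl
  have hlip : LipschitzWith (K * K') (W0 n ∘ clamp) := by
    rw [← lipschitzOnWith_univ]
    exact hK.comp hK'.lipschitzOnWith (fun q _ => clamp_mem q)
  have hL0 : 0 ≤ L := (norm_nonneg _).trans (hL _ (clamp_mem 0))
  obtain ⟨α, h0, h1⟩ := global_exists (W0 n ∘ clamp) hlip (L := ⟨L, hL0⟩)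
    (fun q => hL _ (clamp_mem q)) s₁ q₁
  refine ⟨_, hlip, α, h0, h1, fun hp hv s hs => ⟨?_, ?_⟩⟩
  · rw [← Real.le_log_iff_exp_le (by norm_num)]
    refine barrier (x := fun s => (α s).1) (fun t => (h1 t).fst) ?_ ?_ hs
    · rw [Real.le_log_iff_exp_le (by norm_num)]; simpa [h0] using hp
    · intro t ht
      rw [Real.log_le_iff_le_exp (by norm_num)] at ht
      have := (clamp_mem (α t)).2.2
      simp only [Function.comp, W0]
      have e : (clamp (α t)).1 = 9 / 2 := min_eq_right ht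
      rw [e]; linarith
  · rw [← Real.le_log_iff_exp_le (by norm_num)]
    refine barrier (x := fun s => (α s).2) (fun t => (h1 t).snd) ?_ ?_ hs
    · rw [Real.le_log_iff_exp_le (by norm_num)]; simpa [h0] using hv
    · intro t ht
      rw [Real.log_le_iff_le_exp (by norm_num)] at ht
      have := (clamp_mem (α t)).1
      simp only [Function.comp, W0]
      have e : (clamp (α t)).2 = 7 / 2 := min_eq_right ht
      rw [e]
      have := N0_nonpos n hn _ this.1 this.2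
      linarith

theorem hd_fst {f : ℝ → ℝ × ℝ} {f' : ℝ × ℝ} {x : ℝ} (h : HasDerivAt f f' x) :
    HasDerivAt (fun t => (f t).1) f'.1 x := h.fst

theorem hd_snd {f : ℝ → ℝ × ℝ} {f' : ℝ × ℝ} {x : ℝ} (h : HasDerivAt f f' x) :
    HasDerivAt (fun t => (f t).2) f'.2 x := h.snd

theorem ode_package (n : ℕ) (hn : 10 ≤ n) :
    ∃ δ > 0, ∃ a v : ℝ → ℝ, ContDiffOn ℝ ∞ a (Ioi (-δ)) ∧ ∀ ρ, 0 ≤ ρ → 0 < a ρ ∧ 0 < v ρ ∧
      ∃ y : ℝ, v ρ = 1 + ρ * y ∧ HasDerivAt a (a ρ * (y / 2 - a ρ)) ρ ∧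
        HasDerivAt v (v ρ / 2 * (-((n : ℝ) - 1) * y + 2 * a ρ + 2 * ((n : ℝ) + 2) * a ρ *
          (v ρ - 1 / 2) / (((n : ℝ) - 1) / 2 + 2 * ρ * a ρ))) ρ := by
  have hn' : (10 : ℝ) ≤ n := by exact_mod_cast hn
  obtain ⟨δ₀, hδ₀, a, y, z, ha0, h1, h2⟩ := local_ode n (((n : ℝ) - 1) / 2) (by linarith)
  set v : ℝ → ℝ := fun ρ => 1 + ρ * y ρ with hv
  have ca : ContinuousAt a 0 := (h1 0 (by simpa using hδ₀)).1.continuousAt
  have cy : ContinuousAt y 0 := (h1 0 (by simpa using hδ₀)).2.1.continuousAt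
  have cv : ContinuousAt v 0 := by simp only [hv]; fun_prop
  have cp : ContinuousAt (fun ρ => 2 * ρ * a ρ) 0 := by fun_prop
  have e1 : ∀ᶠ ρ in 𝓝 (0 : ℝ), 0 < a ρ := ca.eventually (lt_mem_nhds (by simp [ha0]))
  have e2 : ∀ᶠ ρ in 𝓝 (0 : ℝ), 0 < v ρ := cv.eventually (lt_mem_nhds (by simp [hv]))
  have e3 : ∀ᶠ ρ in 𝓝 (0 : ℝ), v ρ < 7 / 2 := cv.eventually (gt_mem_nhds (by norm_num [hv]))
  have e4 : ∀ᶠ ρ in 𝓝 (0 : ℝ), 2 * ρ * a ρ < 9 / 2 := cp.eventually (gt_mem_nhds (by norm_num))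
  have e5 : ∀ᶠ ρ in 𝓝 (0 : ℝ), dist ρ 0 < δ₀ := Metric.ball_mem_nhds 0 hδ₀
  obtain ⟨δ, hδ, hδ2⟩ := Metric.eventually_nhds_iff.1 (e1.and (e2.and (e3.and (e4.and e5))))
  have hloc : ∀ ρ, |ρ| < δ → 0 < a ρ ∧ 0 < v ρ ∧ v ρ < 7 / 2 ∧ 2 * ρ * a ρ < 9 / 2 ∧ |ρ| < δ₀ := by
    intro ρ hρ
    simpa [Real.dist_eq] using hδ2 (y := ρ) (by simpa [Real.dist_eq] using hρ)
  -- derivative of `v` on the local range
  have hvd : ∀ ρ, 0 ≤ ρ → ρ < δ → HasDerivAt v (v ρ / 2 * (-((n : ℝ) - 1) * y ρ + 2 * a ρ +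
      2 * ((n : ℝ) + 2) * a ρ * (v ρ - 1 / 2) / (((n : ℝ) - 1) / 2 + 2 * ρ * a ρ))) ρ := by
    intro ρ h0 hρ
    have hab : |ρ| < δ := by rwa [abs_of_nonneg h0]
    obtain ⟨b1, b2, b3, b4, b5⟩ := hloc ρ hab
    obtain ⟨-, c2, -, -, c5⟩ := h1 ρ b5
    have c6 := h2 ρ h0 (by rwa [abs_of_nonneg h0] at b5)
    have hd := ((hasDerivAt_id ρ).mul c2.differentiableAt.hasDerivAt).const_add 1
    have hpos : 0 < ((n : ℝ) - 1) / 2 + 2 * ρ * a ρ := by
      have : 0 ≤ 2 * ρ * a ρ := by positivity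
      linarith
    have hz : z ρ = 1 / (((n : ℝ) - 1) / 2 + 2 * ρ * a ρ) := by
      rw [eq_div_iff hpos.ne']; exact c5
    refine HasDerivAt.congr_deriv hd ?_
    simp only [Gr] at c6
    rw [div_eq_mul_one_div _ (((n : ℝ) - 1) / 2 + 2 * ρ * a ρ), ← hz]
    simp only [hv, id]
    linarith
  set β : ℝ → ℝ × ℝ := fun s =>
    (Real.log (2 * Real.exp s * a (Real.exp s)), Real.log (v (Real.exp s))) with hβ
  have hβe : ∀ s, Real.exp s < δ → Real.exp (β s).1 = 2 * Real.exp s * a (Real.exp s) ∧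
      Real.exp (β s).2 = v (Real.exp s) := by
    intro s hs
    have hpos := Real.exp_pos s
    obtain ⟨b1, b2, -⟩ := hloc (Real.exp s) (by rwa [abs_of_pos hpos])
    exact ⟨Real.exp_log (by positivity), Real.exp_log b2⟩
  have hβd : ∀ s, Real.exp s < δ → HasDerivAt β ((W0 n ∘ clamp) (β s)) s := by
    intro s hs
    have hpos := Real.exp_pos s
    have hab : |Real.exp s| < δ := by rwa [abs_of_pos hpos]
    obtain ⟨b1, b2, b3, b4, b5⟩ := hloc _ hab
    obtain ⟨f1, f2⟩ := hβe s hs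
    have hcl : clamp (β s) = (2 * Real.exp s * a (Real.exp s), v (Real.exp s)) := by
      simp only [clamp, f1, f2, min_eq_left b3.le, min_eq_left b4.le]
    have da := ((h1 _ b5).2.2.2.1).comp s (Real.hasDerivAt_exp s)
    have dv := (hvd _ hpos.le hs).comp s (Real.hasDerivAt_exp s)
    have d1 := (((Real.hasDerivAt_exp s).const_mul 2).mul da).log
      (by simp only [Function.comp, Pi.mul_apply]; positivity)
    have d2 := dv.log (by simp only [Function.comp]; exact b2.ne')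
    have := d1.prodMk d2
    refine HasDerivAt.congr_deriv this ?_
    simp only [Function.comp, hcl, W0, N0, Pi.mul_apply]
    have hpos2 : 0 < ((n : ℝ) - 1) / 2 + 2 * Real.exp s * a (Real.exp s) := by
      have : 0 ≤ 2 * Real.exp s * a (Real.exp s) := by positivity
      linarith
    have hvv : v (Real.exp s) = 1 + Real.exp s * y (Real.exp s) := rfl
    generalize ((n : ℝ) - 1) / 2 + 2 * Real.exp s * a (Real.exp s) = D at hpos2 ⊢
    congr 1
    · rw [hvv]; field_simp; ring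
    · field_simp; rw [hvv]; ring
  obtain ⟨K, hK, α, hα0, hαd, hαb⟩ := global_curve n hn (Real.log (δ / 2)) (β (Real.log (δ / 2)))
  have hexp : Real.exp (Real.log (δ / 2)) = δ / 2 := Real.exp_log (by linarith)
  have hαβ : ∀ s, Real.exp s < δ → α s = β s := by
    intro s hs
    have hs' : s < Real.log δ := (Real.lt_log_iff_exp_lt hδ).2 hs
    have hl : Real.log (δ / 2) < Real.log δ := Real.log_lt_log (by linarith) (by linarith)
    refine ODE_solution_unique_of_mem_Ioo (v := fun _ => W0 n ∘ clamp) (s := fun _ => univ) (K := K)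
      (t₀ := Real.log (δ / 2)) (a := min s (Real.log (δ / 2)) - 1) (b := Real.log δ)
      (fun _ _ => hK.lipschitzOnWith) ⟨by linarith [min_le_right s (Real.log (δ / 2))], hl⟩
      (fun t _ => ⟨hαd t, trivial⟩)
      (fun t ht => ⟨hβd t ((Real.lt_log_iff_exp_lt hδ).1 ht.2), trivial⟩) hα0
      ⟨by linarith [min_le_left s (Real.log (δ / 2))], hs'⟩
  have hbound : ∀ s, Real.exp (α s).1 ≤ 9 / 2 ∧ Real.exp (α s).2 ≤ 7 / 2 := by
    have hb : ∀ s, Real.exp s < δ → Real.exp (β s).1 ≤ 9 / 2 ∧ Real.exp (β s).2 ≤ 7 / 2 := by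
      intro s hs
      obtain ⟨f1, f2⟩ := hβe s hs
      obtain ⟨b1, b2, b3, b4, b5⟩ := hloc (Real.exp s) (by rwa [abs_of_pos (Real.exp_pos s)])
      rw [f1, f2]; exact ⟨b4.le, b3.le⟩
    intro s
    rcases le_total (Real.log (δ / 2)) s with hs | hs
    · have := hb (Real.log (δ / 2)) (by rw [hexp]; linarith)
      exact hαb this.1 this.2 s hs
    · have h3 : Real.exp s < δ := by
        have := Real.exp_le_exp.2 hs
        rw [hexp] at this; linarith
      rw [hαβ s h3]; exact hb s h3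
  set W1 : ℝ × ℝ → ℝ × ℝ := fun q => W0 n (Real.exp q.1, Real.exp q.2) with hW1
  have hαd' : ∀ s, HasDerivAt α (W1 (α s)) s := by
    intro s
    have := hαd s
    simp only [Function.comp, clamp, min_eq_left (hbound s).1, min_eq_left (hbound s).2] at this
    exact this
  have hW1s : ContDiff ℝ ∞ W1 := by
    rw [contDiff_iff_contDiffAt]
    intro q
    exact (W0_contDiffAt n hn _ (Real.exp_pos q.1).le).comp q
      (f := fun q : ℝ × ℝ => (Real.exp q.1, Real.exp q.2)) (by fun_prop)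
  have hαs := smooth_of_ode hW1s hαd'
  set A : ℝ → ℝ := fun ρ => if ρ < δ then a ρ else Real.exp (α (Real.log ρ)).1 / (2 * ρ) with hA
  set V : ℝ → ℝ := fun ρ => if ρ < δ then v ρ else Real.exp (α (Real.log ρ)).2 with hV
  have hAg : ∀ ρ, 0 < ρ → A ρ = Real.exp (α (Real.log ρ)).1 / (2 * ρ) ∧
      V ρ = Real.exp (α (Real.log ρ)).2 := by
    intro ρ hρ
    by_cases hl : ρ < δ
    · have h3 : Real.exp (Real.log ρ) < δ := by rwa [Real.exp_log hρ]
      obtain ⟨f1, f2⟩ := hβe _ h3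
      rw [hαβ _ h3, f1, f2, Real.exp_log hρ]
      simp only [hA, hV, if_pos hl, and_true]
      field_simp
    · simp only [hA, hV, if_neg hl, and_true]
  have hAl : ∀ ρ, ρ < δ → A =ᶠ[𝓝 ρ] a ∧ V =ᶠ[𝓝 ρ] v := by
    intro ρ hρ
    constructor
    · filter_upwards [Iio_mem_nhds hρ] with x hx using if_pos hx
    · filter_upwards [Iio_mem_nhds hρ] with x hx using if_pos hx
  have hAg' : ∀ ρ, 0 < ρ → A =ᶠ[𝓝 ρ] (fun ρ => Real.exp (α (Real.log ρ)).1 / (2 * ρ)) ∧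
      V =ᶠ[𝓝 ρ] fun ρ => Real.exp (α (Real.log ρ)).2 := by
    intro ρ hρ
    constructor
    · filter_upwards [Ioi_mem_nhds hρ] with x hx using (hAg x hx).1
    · filter_upwards [Ioi_mem_nhds hρ] with x hx using (hAg x hx).2
  refine ⟨δ, hδ, A, V, fun ρ hρ => ?_, fun ρ hρ => ?_⟩
  · apply ContDiffAt.contDiffWithinAt
    by_cases hl : ρ < δ
    · have b5 := (hloc ρ (abs_lt.2 ⟨hρ, hl⟩)).2.2.2.2
      exact (h1 ρ b5).1.contDiffAt.congr_of_eventuallyEq (hAl ρ hl).1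
    · have hpos : 0 < ρ := by linarith
      refine ContDiffAt.congr_of_eventuallyEq ?_ (hAg' ρ hpos).1
      have hl : ContDiffAt ℝ ∞ Real.log ρ := Real.contDiffAt_log.2 hpos.ne'
      have h3 : ContDiffAt ℝ ∞ (fun ρ => α (Real.log ρ)) ρ := hαs.contDiffAt.comp ρ hl
      have h4 : 2 * ρ ≠ 0 := by positivity
      exact h3.fst.exp.div (by fun_prop) h4
  · by_cases hl : ρ < δ
    · have hab : |ρ| < δ := by rwa [abs_of_nonneg hρ]
      obtain ⟨b1, b2, b3, b4, b5⟩ := hloc ρ hab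
      have g1 : A ρ = a ρ := if_pos hl
      have g2 : V ρ = v ρ := if_pos hl
      rw [g1, g2]
      refine ⟨b1, b2, y ρ, rfl, ?_, (hvd ρ hρ hl).congr_of_eventuallyEq (hAl ρ hl).2⟩
      have := (h1 ρ b5).2.2.2.1.congr_of_eventuallyEq (hAl ρ hl).1
      refine HasDerivAt.congr_deriv this ?_
      ring
    · have hpos : 0 < ρ := by linarith
      obtain ⟨g1, g2⟩ := hAg ρ hpos
      have dα := (hαd' (Real.log ρ)).scomp ρ (Real.hasDerivAt_log hpos.ne')
      have d1 := ((hd_fst dα).exp.div ((hasDerivAt_id ρ).const_mul 2)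
        (by simp only [id]; positivity)).congr_of_eventuallyEq (hAg' ρ hpos).1
      have d2 := (hd_snd dα).exp.congr_of_eventuallyEq (hAg' ρ hpos).2
      have g3 : Real.exp (α (Real.log ρ)).1 = 2 * ρ * A ρ := by rw [g1]; field_simp
      refine ⟨by rw [g1]; positivity, by rw [g2]; positivity, (V ρ - 1) / ρ, by field_simp; ring,
        ?_, ?_⟩
      · refine HasDerivAt.congr_deriv d1 ?_
        simp only [Function.comp, hW1, W0, g3, ← g2, id, Prod.smul_fst, smul_eq_mul]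
        field_simp
        ring
      · refine HasDerivAt.congr_deriv d2 ?_
        simp only [Function.comp, hW1, W0, N0, g3, ← g2, Prod.smul_snd, smul_eq_mul]
        generalize ((n : ℝ) - 1) / 2 + 2 * ρ * A ρ = D
        field_simp
        ring

end Vale.Agent.P252
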