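import Mathlib

open scoped Topology ContDiff unitInterval
open Set Filter

noncomputable section

namespace Vale.Agent.P252

theorem abstract_local {E : Type*} [NormedAddCommGroup E] [NormedSpace ℝ E] [CompleteSpace E]
    (Ψ : ℝ × E → E) (hΨ : ContDiff ℝ ω Ψ) (X₀ : E) (h0 : ∀ X, Ψ (0, X) = X₀)
    (S : I → E → E) (hS : ∀ s X Y, dist (S s X) (S s Y) ≤ dist X Y)
    (hc : ∀ s ε X, S s (Ψ (ε, X)) = Ψ (ε * s, S s X)) :
    ∃ δ > 0, ∃ ψ : ℝ → E, ψ 0 = X₀ ∧ ∀ ε, |ε| < δ →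
      AnalyticAt ℝ ψ ε ∧ ψ ε = Ψ (ε, ψ ε) ∧ ∀ s : I, S s (ψ ε) = ψ (ε * s) := by
  set f : ℝ × E → E := fun v => v.2 - Ψ v with hf
  have cdf : ContDiffAt ℝ ω f (0, X₀) := (contDiff_snd.sub hΨ).contDiffAt
  have hne : (ω : WithTop ℕ∞) ≠ 0 := by simp
  have hinr : fderiv ℝ f (0, X₀) ∘L .inr ℝ ℝ E = ContinuousLinearMap.id ℝ E := by
    have h1 : HasFDerivAt f (fderiv ℝ f (0, X₀)) (0, X₀) :=
      (cdf.differentiableAt hne).hasFDerivAt
    have h2 : HasFDerivAt (fun X : E => ((0 : ℝ), X)) (ContinuousLinearMap.inr ℝ ℝ E) X₀ :=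
      hasFDerivAt_prodMk_right 0 X₀
    have h3 := h1.comp X₀ h2
    have h4 : (f ∘ fun X : E => ((0 : ℝ), X)) = fun X => X - X₀ := by
      funext X; simp [hf, h0]
    rw [h4] at h3
    exact h3.unique ((hasFDerivAt_id X₀).sub_const X₀)
  have if₂ : (fderiv ℝ f (0, X₀) ∘L .inr ℝ ℝ E).IsInvertible := by
    rw [hinr]; exact ⟨ContinuousLinearEquiv.refl ℝ E, rfl⟩
  set ψ := cdf.implicitFunction hne if₂ with hψ
  have hψ0 : ψ 0 = X₀ := cdf.implicitFunction_apply_self hne if₂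
  have hf0 : f (0, X₀) = 0 := by simp [hf, h0]
  have e1 := cdf.eventually_apply_implicitFunction hne if₂
  have e2 := cdf.eventually_apply_eq_iff_implicitFunction hne if₂
  have e3 : AnalyticAt ℝ ψ 0 := (cdf.contDiffAt_implicitFunction hne if₂).analyticAt
  obtain ⟨r, hr, hr2⟩ := Metric.eventually_nhds_iff.1 e2
  have e4 : ∀ᶠ ε in 𝓝 (0 : ℝ), dist (ψ ε) X₀ < r := by
    have := e3.continuousAt
    rw [ContinuousAt, hψ0] at this
    exact this.eventually (Metric.ball_mem_nhds X₀ hr)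
  have e5 : ∀ᶠ ε in 𝓝 (0 : ℝ), dist ε 0 < r := Metric.ball_mem_nhds 0 hr
  obtain ⟨δ, hδ, hδ2⟩ := Metric.eventually_nhds_iff.1
    (e1.and (e3.eventually_analyticAt.and (e4.and e5)))
  refine ⟨δ, hδ, ψ, hψ0, fun ε hε => ?_⟩
  obtain ⟨a1, a2, a3, a4⟩ := hδ2 (y := ε) (by simpa [Real.dist_eq] using hε)
  have hfix : ψ ε = Ψ (ε, ψ ε) := by
    rw [hf0] at a1
    exact sub_eq_zero.1 a1
  refine ⟨a2, hfix, fun s => ?_⟩
  have hSX : S s X₀ = X₀ := by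
    have := hc s 0 X₀
    rwa [h0, zero_mul, h0] at this
  have hd : dist ((ε * s, S s (ψ ε)) : ℝ × E) (0, X₀) < r := by
    rw [Prod.dist_eq]
    refine max_lt ?_ ?_
    · refine lt_of_le_of_lt ?_ a4
      simp only [Real.dist_eq, sub_zero, abs_mul]
      have := s.2.1
      have h2 := s.2.2
      rw [abs_of_nonneg this]
      exact mul_le_of_le_one_right (abs_nonneg _) h2
    · refine lt_of_le_of_lt ?_ a3
      conv_lhs => rw [← hSX]
      exact hS _ _ _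
  have := (hr2 hd).1 (by
    rw [hf0]
    simp only [hf]
    rw [← hc, ← hfix, sub_self])
  exact this.symm

/-- The averaging operator. -/
def Tfun (j k : ℕ) (g : C(I, ℝ)) : C(I, ℝ) :=
  ⟨fun ξ => ∫ τ in (0 : ℝ)..1, τ ^ j * g (projIcc 0 1 zero_le_one τ ^ k * ξ), by
    apply intervalIntegral.continuous_parametric_intervalIntegral_of_continuous'
    unfold Function.uncurry
    have : Continuous fun τ : ℝ => projIcc (0 : ℝ) 1 zero_le_one τ := continuous_projIcc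
    fun_prop⟩

theorem Tcont (j k : ℕ) (g : C(I, ℝ)) (ξ : I) :
    Continuous fun τ : ℝ => τ ^ j * g (projIcc 0 1 zero_le_one τ ^ k * ξ) := by
  have : Continuous fun τ : ℝ => projIcc (0 : ℝ) 1 zero_le_one τ := continuous_projIcc
  fun_prop

def Tlin (j k : ℕ) : C(I, ℝ) →ₗ[ℝ] C(I, ℝ) where
  toFun := Tfun j k
  map_add' g h := by
    ext ξ
    simp only [Tfun, ContinuousMap.coe_mk, ContinuousMap.add_apply, mul_add]
    exact intervalIntegral.integral_add ((Tcont j k g ξ).intervalIntegrable _ _)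
      ((Tcont j k h ξ).intervalIntegrable _ _)
  map_smul' c g := by
    ext ξ
    simp only [Tfun, ContinuousMap.coe_mk, ContinuousMap.smul_apply, smul_eq_mul, RingHom.id_apply]
    rw [← intervalIntegral.integral_const_mul]
    congr 1; funext τ; ring

def T (j k : ℕ) : C(I, ℝ) →L[ℝ] C(I, ℝ) :=
  (Tlin j k).mkContinuous 1 (by
    intro g
    rw [one_mul, ContinuousMap.norm_le _ (norm_nonneg _)]
    intro ξ
    have := intervalIntegral.norm_integral_le_of_norm_le_const (a := 0) (b := 1) (C := ‖g‖)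
      (f := fun τ : ℝ => τ ^ j * g (projIcc 0 1 zero_le_one τ ^ k * ξ)) (by
        intro τ hτ
        rw [uIoc_of_le zero_le_one] at hτ
        rw [norm_mul]
        have h1 : ‖τ ^ j‖ ≤ 1 := by
          rw [norm_pow, Real.norm_eq_abs, abs_of_pos hτ.1]
          exact pow_le_one₀ hτ.1.le hτ.2
        have h2 := g.norm_coe_le_norm (projIcc 0 1 zero_le_one τ ^ k * ξ)
        calc _ ≤ 1 * ‖g‖ := mul_le_mul h1 h2 (norm_nonneg _) zero_le_one
          _ = _ := one_mul _)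
    simpa [Tlin, Tfun] using this)

theorem T_apply (j k : ℕ) (g : C(I, ℝ)) (ξ : I) :
    T j k g ξ = ∫ τ in (0 : ℝ)..1, τ ^ j * g (projIcc 0 1 zero_le_one τ ^ k * ξ) := rfl

def Sc (s : I) (g : C(I, ℝ)) : C(I, ℝ) := g.comp ⟨fun ξ => s * ξ, by fun_prop⟩

@[simp] theorem Sc_apply (s : I) (g : C(I, ℝ)) (ξ : I) : Sc s g ξ = g (s * ξ) := rfl

theorem Sc_T (s : I) (j k : ℕ) (g : C(I, ℝ)) : Sc s (T j k g) = T j k (Sc s g) := by
  ext ξ
  simp only [Sc_apply, T_apply, mul_left_comm s]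

theorem Sc_dist (s : I) (g h : C(I, ℝ)) : dist (Sc s g) (Sc s h) ≤ dist g h := by
  rw [ContinuousMap.dist_le dist_nonneg]
  intro ξ
  rw [Sc_apply, Sc_apply]
  exact ContinuousMap.dist_apply_le_dist (f := g) (g := h) (s * ξ)

def iota : C(I, ℝ) := ⟨fun ξ => ξ, continuous_subtype_val⟩

@[simp] theorem iota_apply (ξ : I) : iota ξ = ξ := rfl

abbrev E3 := C(I, ℝ) × C(I, ℝ) × C(I, ℝ)

def PsiA (v : ℝ × E3) : C(I, ℝ) :=
  1 + (v.1 • iota) * T 0 1 (v.2.1 * ((1 / 2 : ℝ) • v.2.2.1 - v.2.1))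

def PsiZ (l : ℝ) (v : ℝ × E3) : C(I, ℝ) :=
  l⁻¹ • (1 - (2 : ℝ) • ((v.1 • iota) * v.2.1 * v.2.2.2))

def GY (n : ℕ) (l : ℝ) (v : ℝ × E3) : C(I, ℝ) :=
  (-((n : ℝ) - 1)) • ((v.1 • iota) * v.2.2.1 * v.2.2.1) + (1 + (v.1 • iota) * v.2.2.1) *
    ((2 : ℝ) • PsiA v + (2 * ((n : ℝ) + 2)) • (PsiA v * ((1 / 2 : ℝ) • 1 + (v.1 • iota) * v.2.2.1)
      * PsiZ l v))

def Psi (n : ℕ) (l : ℝ) (v : ℝ × E3) : E3 := (PsiA v, T n 2 (GY n l v), PsiZ l v)

theorem contDiff_PsiA : ContDiff ℝ ω PsiA := by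
  unfold PsiA
  have h1 : ContDiff ℝ ω (fun v : ℝ × E3 => v.2.1 * ((1 / 2 : ℝ) • v.2.2.1 - v.2.1)) := by
    fun_prop
  have h2 := ((T 0 1).contDiff (n := ω)).comp h1
  have h3 : ContDiff ℝ ω (fun v : ℝ × E3 => v.1 • iota) := by fun_prop
  exact contDiff_const.add (h3.mul h2)

theorem contDiff_PsiZ (l : ℝ) : ContDiff ℝ ω (PsiZ l) := by
  unfold PsiZ
  fun_prop

theorem contDiff_Psi (n : ℕ) (l : ℝ) : ContDiff ℝ ω (Psi n l) := by
  unfold Psi GY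
  have := (T n 2).contDiff (n := ω)
  have h1 := contDiff_PsiA
  have h2 := contDiff_PsiZ l
  fun_prop

def S3 (s : I) (X : E3) : E3 := (Sc s X.1, Sc s X.2.1, Sc s X.2.2)

theorem S3_dist (s : I) (X Y : E3) : dist (S3 s X) (S3 s Y) ≤ dist X Y := by
  simp only [S3, Prod.dist_eq]
  exact max_le_max (Sc_dist _ _ _) (max_le_max (Sc_dist _ _ _) (Sc_dist _ _ _))

theorem Sc_PsiA (s : I) (ε : ℝ) (X : E3) : Sc s (PsiA (ε, X)) = PsiA (ε * s, S3 s X) := by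
  ext ξ
  have := DFunLike.congr_fun (Sc_T s 0 1 (X.1 * ((1 / 2 : ℝ) • X.2.1 - X.1))) ξ
  have h2 : Sc s (X.1 * ((1 / 2 : ℝ) • X.2.1 - X.1)) =
      Sc s X.1 * ((1 / 2 : ℝ) • Sc s X.2.1 - Sc s X.1) := by ext; simp
  rw [h2, Sc_apply] at this
  simp only [PsiA, S3, Sc_apply, ContinuousMap.add_apply, ContinuousMap.mul_apply,
    ContinuousMap.smul_apply, iota_apply, this, ContinuousMap.one_apply, smul_eq_mul]
  simp [mul_assoc]

theorem Sc_PsiZ (l : ℝ) (s : I) (ε : ℝ) (X : E3) :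
    Sc s (PsiZ l (ε, X)) = PsiZ l (ε * s, S3 s X) := by
  ext ξ
  simp [PsiZ, S3, mul_assoc]

theorem S3_Psi (n : ℕ) (l : ℝ) (s : I) (ε : ℝ) (X : E3) :
    S3 s (Psi n l (ε, X)) = Psi n l (ε * s, S3 s X) := by
  have h : Sc s (GY n l (ε, X)) = GY n l (ε * s, S3 s X) := by
    ext ξ
    simp only [GY, ← Sc_PsiA, ← Sc_PsiZ]
    simp [S3, mul_assoc]
  show (Sc s (PsiA (ε, X)), Sc s (T n 2 (GY n l (ε, X))), Sc s (PsiZ l (ε, X))) = _
  rw [Sc_PsiA, Sc_PsiZ, Sc_T, h]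
  rfl

theorem Psi_zero (n : ℕ) (l : ℝ) (X : E3) : Psi n l (0, X) = Psi n l (0, 0) := by
  simp [Psi, GY, PsiA, PsiZ]

theorem proj_mem {τ : ℝ} (hτ : τ ∈ uIcc (0 : ℝ) 1) :
    ((projIcc (0 : ℝ) 1 zero_le_one τ : I) : ℝ) = τ := by
  rw [uIcc_of_le zero_le_one] at hτ
  rw [projIcc_of_mem _ hτ]

/-- right side of the equation for `y` -/
def Gr (n : ℕ) (ρ a y z : ℝ) : ℝ :=
  -((n : ℝ) - 1) * (ρ * y * y) + (1 + ρ * y) * (2 * a + 2 * ((n : ℝ) + 2) * (a * (1 / 2 + ρ * y) * z))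

theorem local_integral (n : ℕ) (l : ℝ) :
    ∃ δ > 0, ∃ a y z : ℝ → ℝ, a 0 = 1 ∧ z 0 = l⁻¹ ∧ ∀ ρ, |ρ| < δ →
      AnalyticAt ℝ a ρ ∧ AnalyticAt ℝ y ρ ∧ AnalyticAt ℝ z ρ ∧
      a ρ = 1 + ρ * ∫ τ in (0 : ℝ)..1, a (ρ * τ) * (1 / 2 * y (ρ * τ) - a (ρ * τ)) ∧
      y ρ = ∫ τ in (0 : ℝ)..1, τ ^ n *
        Gr n (ρ * τ ^ 2) (a (ρ * τ ^ 2)) (y (ρ * τ ^ 2)) (z (ρ * τ ^ 2)) ∧
      z ρ = l⁻¹ * (1 - 2 * (ρ * a ρ * z ρ)) := by
  obtain ⟨δ, hδ, ψ, h0, h⟩ := abstract_local (Psi n l) (contDiff_Psi n l) (Psi n l (0, 0))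
    (Psi_zero n l) S3 S3_dist (S3_Psi n l)
  refine ⟨δ, hδ, fun ρ => (ψ ρ).1 1, fun ρ => (ψ ρ).2.1 1, fun ρ => (ψ ρ).2.2 1, ?_, ?_, ?_⟩
  · simp [h0, Psi, PsiA]
  · simp [h0, Psi, PsiZ]
  intro ρ hρ
  obtain ⟨h1, h2, h3⟩ := h ρ hρ
  have hA : ∀ s : I, (ψ ρ).1 s = (ψ (ρ * s)).1 1 := by
    intro s; rw [← h3 s]; simp [S3]
  have hY : ∀ s : I, (ψ ρ).2.1 s = (ψ (ρ * s)).2.1 1 := by
    intro s; rw [← h3 s]; simp [S3]
  have hZ : ∀ s : I, (ψ ρ).2.2 s = (ψ (ρ * s)).2.2 1 := by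
    intro s; rw [← h3 s]; simp [S3]
  have eA : (ψ ρ).1 = PsiA (ρ, ψ ρ) := congrArg Prod.fst h2
  have eY : (ψ ρ).2.1 = T n 2 (GY n l (ρ, ψ ρ)) := congrArg (fun X => X.2.1) h2
  have eZ : (ψ ρ).2.2 = PsiZ l (ρ, ψ ρ) := congrArg (fun X => X.2.2) h2
  let ev : C(I, ℝ) →L[ℝ] ℝ := ContinuousMap.evalCLM ℝ 1
  have ev1 := ((ev.comp (ContinuousLinearMap.fst ℝ _ _)).analyticAt (ψ ρ)).comp h1
  have ev2 := ((ev.comp ((ContinuousLinearMap.fst ℝ _ _).comp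
    (ContinuousLinearMap.snd ℝ _ _))).analyticAt (ψ ρ)).comp h1
  have ev3 := ((ev.comp ((ContinuousLinearMap.snd ℝ _ _).comp
    (ContinuousLinearMap.snd ℝ _ _))).analyticAt (ψ ρ)).comp h1
  refine ⟨ev1, ev2, ev3, ?_, ?_, ?_⟩
  · show (ψ ρ).1 1 = _
    rw [eA]
    simp only [PsiA, ContinuousMap.add_apply, ContinuousMap.mul_apply, ContinuousMap.one_apply,
      ContinuousMap.smul_apply, iota_apply, T_apply, smul_eq_mul, Icc.coe_one, mul_one]
    congr 2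
    apply intervalIntegral.integral_congr
    intro τ hτ
    simp only [pow_zero, one_mul, pow_one, ContinuousMap.sub_apply, ContinuousMap.smul_apply,
      smul_eq_mul]
    rw [hA, hY, proj_mem hτ]
  · show (ψ ρ).2.1 1 = _
    rw [eY, T_apply]
    apply intervalIntegral.integral_congr
    intro τ hτ
    simp only [GY, ← eA, ← eZ, mul_one]
    simp only [ContinuousMap.add_apply, ContinuousMap.mul_apply, ContinuousMap.one_apply,
      ContinuousMap.smul_apply, iota_apply, smul_eq_mul, mul_one]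
    rw [hA, hY, hZ, Icc.coe_pow, proj_mem hτ, Gr]
  · show (ψ ρ).2.2 1 = _
    conv_lhs => rw [eZ]
    simp [PsiZ, mul_assoc]

theorem hasDerivAt_int {F : ℝ → ℝ} {U : Set ℝ} (hU : IsOpen U) (hc : U.OrdConnected)
    (hF : ContinuousOn F U) (h0 : (0 : ℝ) ∈ U) {ρ : ℝ} (hρ : ρ ∈ U) :
    HasDerivAt (fun x => ∫ τ in (0 : ℝ)..x, F τ) (F ρ) ρ :=
  intervalIntegral.integral_hasDerivAt_right
    ((hF.mono (hc.uIcc_subset h0 hρ)).intervalIntegrable)
    (hF.stronglyMeasurableAtFilter hU ρ hρ) (hF.continuousAt (hU.mem_nhds hρ))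

theorem local_ode (n : ℕ) (l : ℝ) (hl : l ≠ 0) :
    ∃ δ > 0, ∃ a y z : ℝ → ℝ, a 0 = 1 ∧ (∀ ρ, |ρ| < δ →
      AnalyticAt ℝ a ρ ∧ AnalyticAt ℝ y ρ ∧ AnalyticAt ℝ z ρ ∧
      HasDerivAt a (a ρ * (1 / 2 * y ρ - a ρ)) ρ ∧ z ρ * (l + 2 * ρ * a ρ) = 1) ∧
      ∀ ρ, 0 ≤ ρ → ρ < δ → 2 * ρ * deriv y ρ + (n + 1) * y ρ = Gr n ρ (a ρ) (y ρ) (z ρ) := by
  obtain ⟨δ, hδ, a, y, z, ha0, hz0, h⟩ := local_integral n l
  have hmem : ∀ {ρ : ℝ}, ρ ∈ Ioo (-δ) δ → |ρ| < δ := fun h => abs_lt.2 h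
  have ca : ContinuousOn a (Ioo (-δ) δ) := fun ρ hρ =>
    (h ρ (hmem hρ)).1.continuousAt.continuousWithinAt
  have cy : ContinuousOn y (Ioo (-δ) δ) := fun ρ hρ =>
    (h ρ (hmem hρ)).2.1.continuousAt.continuousWithinAt
  have cz : ContinuousOn z (Ioo (-δ) δ) := fun ρ hρ =>
    (h ρ (hmem hρ)).2.2.1.continuousAt.continuousWithinAt
  refine ⟨δ, hδ, a, y, z, ha0, fun ρ hρ => ?_, ?_⟩
  · obtain ⟨h1, h2, h3, -, -, h6⟩ := h ρ hρ
    refine ⟨h1, h2, h3, ?_, ?_⟩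
    · have hd := (hasDerivAt_int (F := fun ρ => a ρ * (1 / 2 * y ρ - a ρ)) isOpen_Ioo
        ordConnected_Ioo (by fun_prop) (U := Ioo (-δ) δ) ⟨by linarith, hδ⟩ (abs_lt.1 hρ)).const_add 1
      refine hd.congr_of_eventuallyEq ?_
      filter_upwards [Ioo_mem_nhds (abs_lt.1 hρ).1 (abs_lt.1 hρ).2] with x hx
      rw [(h x (hmem hx)).2.2.2.1,
        intervalIntegral.mul_integral_comp_mul_left (f := fun ρ => a ρ * (1 / 2 * y ρ - a ρ))]
      simp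
    · have : l * z ρ = 1 - 2 * (ρ * a ρ * z ρ) := by
        conv_lhs => rw [h6]
        field_simp
      linarith
  · intro ρ hρ0 hρ
    set G : ℝ → ℝ := fun ρ => Gr n ρ (a ρ) (y ρ) (z ρ) with hG
    have cG : ContinuousOn G (Ioo (-δ) δ) := by
      simp only [hG, Gr]; fun_prop
    rcases hρ0.eq_or_lt with rfl | hpos
    · have := (h 0 (by simpa using hδ)).2.2.2.2.1
      simp only [zero_mul] at this
      rw [intervalIntegral.integral_mul_const, integral_pow] at this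
      have hn : ((n : ℝ) + 1) ≠ 0 := by positivity
      simp only [one_pow, ne_eq, Nat.add_eq_zero_iff, one_ne_zero, and_false, not_false_eq_true,
        zero_pow, sub_zero] at this
      simp only [mul_zero, zero_mul, zero_add]
      conv_lhs => rw [this]
      field_simp
    · obtain ⟨r, hr, rfl⟩ : ∃ r : ℝ, 0 < r ∧ ρ = r ^ 2 :=
        ⟨√ρ, Real.sqrt_pos.2 hpos, (Real.sq_sqrt hρ0).symm⟩
      have hU : IsOpen {x : ℝ | x ^ 2 < δ} := isOpen_lt (by fun_prop) continuous_const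
      have hUc : ({x : ℝ | x ^ 2 < δ}).OrdConnected := by
        apply Convex.ordConnected
        have := (Even.convexOn_pow (𝕜 := ℝ) (even_two)).convex_lt δ
        simpa using this
      have hsq : MapsTo (fun x : ℝ => x ^ 2) {x : ℝ | x ^ 2 < δ} (Ioo (-δ) δ) := fun x hx =>
        ⟨by have := sq_nonneg x; linarith, hx⟩
      have hd := hasDerivAt_int (F := fun w => w ^ n * G (w ^ 2)) hU hUc
        ((continuous_pow n).continuousOn.mul (cG.comp (continuous_pow 2).continuousOn hsq))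
        (by simpa using hδ) (ρ := r) hρ
      have hy : HasDerivAt y (deriv y (r ^ 2)) (r ^ 2) :=
        (h _ (hmem (hsq hρ))).2.1.differentiableAt.hasDerivAt
      have hd2 := (hasDerivAt_pow (n + 1) r).mul (hy.comp r (h := fun x : ℝ => x ^ 2) (hasDerivAt_pow 2 r))
      have heq : (fun x : ℝ => x ^ (n + 1)) * (y ∘ fun x => x ^ 2) =ᶠ[𝓝 r]
          fun x => ∫ τ in (0 : ℝ)..x, τ ^ n * G (τ ^ 2) := by
        filter_upwards [hU.mem_nhds hρ] with x hx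
        have h5 := (h _ (hmem (hsq hx))).2.2.2.2.1
        have h7 := intervalIntegral.mul_integral_comp_mul_left (a := 0) (b := 1)
          (f := fun w => w ^ n * G (w ^ 2)) (c := x)
        simp only [mul_zero, mul_one] at h7
        rw [← h7]
        simp only [Pi.mul_apply, Function.comp]
        rw [h5, pow_succ', mul_assoc, ← intervalIntegral.integral_const_mul]
        congr 2
        funext τ
        simp only [hG, mul_pow]
        ring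
      have := (hd.congr_of_eventuallyEq heq).unique hd2
      simp only [Function.comp, Nat.add_sub_cancel] at this
      have hrn : r ^ n ≠ 0 := by positivity
      apply mul_left_cancel₀ hrn
      change _ = r ^ n * G (r ^ 2)
      rw [this]
      push_cast
      ring

end Vale.Agent.P252
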