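import Vale.Agent.P252.Calc
import Vale.Agent.P252.Global

open Matrix Set
open scoped ContDiff

noncomputable section

namespace Vale.Agent.P252

theorem ode_identity {N l ρ a v y z g g' : ℝ} (hl : l = (N - 1) / 2) (hv : v = 1 + ρ * y)
    (hz : z * (l + 2 * ρ * a) = 1) (hg : g = -(N + 1) * (a * (1 + (v - 1 / 2) * z)))
    (hg' : g' = -(N + 1) * (a * (y / 2 - a) * (1 + (v - 1 / 2) * z) +
      a * (v / 2 * (-(N - 1) * y + 2 * a + 2 * (N + 2) * a * (v - 1 / 2) * z) * z +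
        (v - 1 / 2) * (-z ^ 2 * (2 * a + 2 * ρ * (a * (y / 2 - a))))))) :
    2 * (N - 2) * v * g + 2 * g + 4 * ρ * g ^ 2 + 4 * ρ * g' + 4 * (N + 1) * (2 * ρ * a) * g +
      2 * N * (N + 1) * a * (v + 2 * ρ * a) = 0 := by
  have hne : l + 2 * ρ * a ≠ 0 := by
    intro h; rw [h] at hz; simp at hz
  have hz' : z = 1 / (l + 2 * ρ * a) := by rw [eq_div_iff hne]; exact hz
  have hN : N = 2 * l + 1 := by linarith
  subst hg hg' hv hN
  rw [hz']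
  field_simp
  ring

theorem trace_identity {N ρ a v y E t u w g g' : ℝ} (hu : 0 < u) (ha : 0 < a) (hE : 0 < E)
    (hv0 : 0 < v) (hq : u ^ 2 = E + t ^ 2) (hv : v = 1 + ρ * y)
    (hI : 2 * (N - 2) * v * g + 2 * g + 4 * ρ * g ^ 2 + 4 * ρ * g' + 4 * (N + 1) * (2 * ρ * a) * g +
      2 * N * (N + 1) * a * (v + 2 * ρ * a) = 0)
    {α β γ δ Δ A B A₁ A₂ B₂ : ℝ} (hα : α = 2 * (a * E * u⁻¹))
    (hβ : β = 4 * ((a * (y / 2 - a) + 2 * a ^ 2) * E * u⁻¹ - a ^ 2 * E ^ 2 * u⁻¹ ^ 3))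
    (hγ : γ = 2 * (-(a * E * t * u⁻¹ ^ 3))) (hδ : δ = E * u⁻¹ ^ 3)
    (hΔ : Δ = 2 * a * E ^ 2 * v * u⁻¹ ^ 4)
    (hA : A = g + (N + 1) * (a * E * u⁻¹ ^ 2)) (hB : B = (N + 1) * (t * u⁻¹ ^ 2))
    (hA₁ : A₁ = g' + (N + 1) * ((a * (y / 2 - a) + 2 * a ^ 2) * E * u⁻¹ ^ 2 -
      2 * a ^ 2 * E ^ 2 * u⁻¹ ^ 4))
    (hA₂ : A₂ = -(2 * (N + 1) * a * E * t * u⁻¹ ^ 4))
    (hB₂ : B₂ = (N + 1) * (u⁻¹ ^ 2 - 2 * t ^ 2 * u⁻¹ ^ 4)) :
    (N - 2) * (α⁻¹ * (2 * (w * A))) + (α⁻¹ + (γ ^ 2 - β * δ) / (α * Δ) * ρ) *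
      (2 * (w * A) + 4 * (w * (A ^ 2 + A₁)) * ρ) + 2 * (-γ / Δ) * (2 * (w * (A * B + A₂))) * ρ +
      (α + β * ρ) / Δ * (w * (B ^ 2 + B₂)) = 0 := by
  have hD : Δ = (α + β * ρ) * δ - γ ^ 2 * ρ := by
    have hE' : t ^ 2 = u ^ 2 - E := by linarith
    rw [hΔ, hα, hβ, hγ, hδ, hv]
    field_simp
    linear_combination (8 * a * ρ) * hE'
  have hα0 : α ≠ 0 := by rw [hα]; positivity
  have hΔ0 : Δ ≠ 0 := by rw [hΔ]; positivity
  have h1 : α⁻¹ + (γ ^ 2 - β * δ) / (α * Δ) * ρ = δ / Δ := by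
    field_simp; rw [hD]; ring
  have h2 : α⁻¹ = E * v * u⁻¹ ^ 3 / Δ := by
    rw [hα, hΔ]; field_simp
  have h3 : α + β * ρ = 2 * a * E * u⁻¹ ^ 3 * (v * u ^ 2 + 2 * ρ * a * t ^ 2) := by
    have hE' : t ^ 2 = u ^ 2 - E := by linarith
    rw [hα, hβ, hv, hE']
    field_simp
    ring
  rw [h1, h2, h3]
  have hE' : E = u ^ 2 - t ^ 2 := by linarith
  have key : (N - 2) * (E * v * u⁻¹ ^ 3 * (2 * (w * A))) + δ *
      (2 * (w * A) + 4 * (w * (A ^ 2 + A₁)) * ρ) + 2 * (-γ) * (2 * (w * (A * B + A₂))) * ρ +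
      2 * a * E * u⁻¹ ^ 3 * (v * u ^ 2 + 2 * ρ * a * t ^ 2) * (w * (B ^ 2 + B₂)) =
      w * E * u⁻¹ ^ 3 * (2 * (N - 2) * v * g + 2 * g + 4 * ρ * g ^ 2 + 4 * ρ * g' +
        4 * (N + 1) * (2 * ρ * a) * g + 2 * N * (N + 1) * a * (v + 2 * ρ * a)) := by
    rw [hγ, hδ, hA, hB, hA₁, hA₂, hB₂, hv, hE']
    field_simp
    ring
  rw [hI, mul_zero] at key
  have := congrArg (· / Δ) key
  simp only [zero_div] at this
  rw [← this]
  ring

theorem main_calc (m k : ℕ) (hk : m + 1 = k + 2) (N l : ℝ) (hN : N = (m + 1 : ℕ))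
    (hl : l = (N - 1) / 2) (a v y S : ℝ → ℝ)
    (ha : ∀ ρ, 0 ≤ ρ → 0 < a ρ) (hv : ∀ ρ, 0 ≤ ρ → 0 < v ρ) (hy : ∀ ρ, 0 ≤ ρ → v ρ = 1 + ρ * y ρ)
    (da : ∀ ρ, 0 ≤ ρ → HasDerivAt a (a ρ * (y ρ / 2 - a ρ)) ρ)
    (dv : ∀ ρ, 0 ≤ ρ → HasDerivAt v (v ρ / 2 * (-(N - 1) * y ρ + 2 * a ρ + 2 * (N + 2) * a ρ *
          (v ρ - 1 / 2) / (l + 2 * ρ * a ρ))) ρ)
    (dS : ∀ ρ, 0 ≤ ρ → HasDerivAt S (a ρ) ρ)
    (u : (Fin (m + 1) → ℝ) → ℝ) (hu : u = fun x => √(Real.exp (2 * S (rho x)) + x 0 * x 0)) :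
    (∀ x, (hess u x).PosDef) ∧ ∀ x, ∑ i, ∑ j, (hess u x).det * (hess u x)⁻¹ i j *
      hess (fun x' => (hess u x').det ^ (-(N + 1) / (N + 2))) x i j = 0 := by
  have hN2 : N = k + 2 := by rw [hN, hk]; push_cast; ring
  have hk0 : (0 : ℝ) ≤ k := Nat.cast_nonneg k
  have hlpos : 0 < l := by rw [hl, hN2]; linarith
  set E : ℝ → ℝ := fun ρ => Real.exp (2 * S ρ) with hE
  have hEpos : ∀ ρ, 0 < E ρ := fun ρ => Real.exp_pos _
  have dE : ∀ ρ, 0 ≤ ρ → HasDerivAt E (2 * a ρ * E ρ) ρ := fun ρ hρ =>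
    (((dS ρ hρ).const_mul 2).exp).congr_deriv (by simp only [hE]; ring)
  have hqpos : ∀ x : Fin (m + 1) → ℝ, 0 < E (rho x) + x 0 * x 0 := fun x =>
    add_pos_of_pos_of_nonneg (hEpos _) (mul_self_nonneg _)
  have hupos : ∀ x, 0 < u x := fun x => by rw [hu]; exact Real.sqrt_pos.2 (hqpos x)
  have hu2 : ∀ x, u x ^ 2 = E (rho x) + x 0 ^ 2 := fun x => by
    rw [hu, Real.sq_sqrt (hqpos x).le]; ring
  have Da := HasD.rad (m := m) da
  have DE := HasD.rad (m := m) dE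
  have Dt := HasD.vert (m := m)
  have Du : HasD u (fun x => a (rho x) * E (rho x) * (u x)⁻¹) (fun x => x 0 * (u x)⁻¹) := by
    have h1 := (DE.add (Dt.mul Dt)).comp (g := Real.sqrt) (g' := fun x => 1 / (2 * u x))
      (fun x => by rw [hu]; exact Real.hasDerivAt_sqrt (hqpos x).ne')
    have h2 : u = fun x => √(E (rho x) + x 0 * x 0) := hu
    rw [← h2] at h1
    refine h1.congr (fun x => ?_) (fun x => ?_)
    · have := hupos x; field_simp; ring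
    · have := hupos x; field_simp; ring
  have Dui : HasD (fun x => (u x)⁻¹) (fun x => -(a (rho x) * E (rho x) * (u x)⁻¹ ^ 3))
      (fun x => -(x 0 * (u x)⁻¹ ^ 3)) := by
    refine (Du.comp (g := fun s => s⁻¹) (fun x => hasDerivAt_inv (hupos x).ne')).congr
      (fun x => ?_) (fun x => ?_)
    · have := hupos x; field_simp
    · have := hupos x; field_simp
  have DA : HasD (fun x => a (rho x) * E (rho x) * (u x)⁻¹)
      (fun x => (a (rho x) * (y (rho x) / 2 - a (rho x)) + 2 * a (rho x) ^ 2) * E (rho x) * (u x)⁻¹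
        - a (rho x) ^ 2 * E (rho x) ^ 2 * (u x)⁻¹ ^ 3)
      (fun x => -(a (rho x) * E (rho x) * x 0 * (u x)⁻¹ ^ 3)) :=
    ((Da.mul DE).mul Dui).congr (fun x => by ring) (fun x => by ring)
  have DB : HasD (fun x => x 0 * (u x)⁻¹)
      (fun x => -(a (rho x) * E (rho x) * x 0 * (u x)⁻¹ ^ 3))
      (fun x => E (rho x) * (u x)⁻¹ ^ 3) :=
    (Dt.mul Dui).congr (fun x => by ring) (fun x => by
      have := hupos x
      have h2 := hu2 x
      field_simp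
      linarith)
  have Hu := fun x => Du.hess_eq DA DB x
  have hΔ : ∀ x : Fin (m + 1) → ℝ, 2 * a (rho x) * E (rho x) ^ 2 * v (rho x) * (u x)⁻¹ ^ 4 =
      (2 * (a (rho x) * E (rho x) * (u x)⁻¹) + 4 * ((a (rho x) * (y (rho x) / 2 - a (rho x)) +
        2 * a (rho x) ^ 2) * E (rho x) * (u x)⁻¹ - a (rho x) ^ 2 * E (rho x) ^ 2 * (u x)⁻¹ ^ 3) *
        rho x) * (E (rho x) * (u x)⁻¹ ^ 3) -
        (2 * -(a (rho x) * E (rho x) * x 0 * (u x)⁻¹ ^ 3)) ^ 2 * rho x := by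
    intro x
    have := hupos x
    have h2 := hu2 x
    rw [hy _ (rho_nonneg x)]
    field_simp
    linear_combination (-8 * a (rho x) ^ 2 * E (rho x) ^ 2 * rho x) * h2
  have hαpos : ∀ x : Fin (m + 1) → ℝ, 0 < 2 * (a (rho x) * E (rho x) * (u x)⁻¹) := fun x => by
    have := hupos x; have := ha _ (rho_nonneg x); have := hEpos (rho x); positivity
  have hΔpos : ∀ x : Fin (m + 1) → ℝ,
      0 < 2 * a (rho x) * E (rho x) ^ 2 * v (rho x) * (u x)⁻¹ ^ 4 := fun x => by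
    have := hupos x; have := ha _ (rho_nonneg x); have := hEpos (rho x)
    have := hv _ (rho_nonneg x); positivity
  constructor
  · intro x
    rw [Hu x]
    refine MM_posDef (ρ := rho x) rfl (xh_e0 x) e0_e0 (hαpos x) ?_ ?_
    · have := hupos x; have := hEpos (rho x); positivity
    · rw [← hΔ x]; exact hΔpos x
  have hcard : Fintype.card (Fin (m + 1)) = k + 2 := by simp [hk]
  have hdet : ∀ x, (hess u x).det = (2 * (a (rho x) * E (rho x) * (u x)⁻¹)) ^ k *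
      (2 * a (rho x) * E (rho x) ^ 2 * v (rho x) * (u x)⁻¹ ^ 4) := fun x => by
    rw [Hu x, MM_det (ρ := rho x) rfl (xh_e0 x) e0_e0 (hαpos x).ne' hcard, ← hΔ x]
  set L0 : ℝ → ℝ := fun ρ => -(N + 1) / (N + 2) *
    ((N - 1) * Real.log (2 * a ρ) + 2 * N * S ρ + Real.log (v ρ)) with hL0
  set z : ℝ → ℝ := fun ρ => (l + 2 * ρ * a ρ)⁻¹ with hz
  set g : ℝ → ℝ := fun ρ => -(N + 1) * (a ρ * (1 + (v ρ - 1 / 2) * z ρ)) with hg
  set g' : ℝ → ℝ := fun ρ => -(N + 1) * (a ρ * (y ρ / 2 - a ρ) * (1 + (v ρ - 1 / 2) * z ρ) +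
      a ρ * (v ρ / 2 * (-(N - 1) * y ρ + 2 * a ρ + 2 * (N + 2) * a ρ * (v ρ - 1 / 2) * z ρ) * z ρ +
        (v ρ - 1 / 2) * (-z ρ ^ 2 * (2 * a ρ + 2 * ρ * (a ρ * (y ρ / 2 - a ρ)))))) with hg'
  have hden : ∀ ρ, 0 ≤ ρ → 0 < l + 2 * ρ * a ρ := fun ρ hρ => by
    have := ha ρ hρ; positivity
  have dL0 : ∀ ρ, 0 ≤ ρ → HasDerivAt L0 (g ρ) ρ := by
    intro ρ hρ
    have h1 := ha ρ hρ
    have h2 := hv ρ hρ
    have h3 := hden ρ hρ
    have h4 : 0 < N + 2 := by rw [hN2]; linarith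
    refine ((((((da ρ hρ).const_mul 2).log (by positivity)).const_mul (N - 1)).add
      ((dS ρ hρ).const_mul (2 * N))).add ((dv ρ hρ).log h2.ne')).const_mul
      (-(N + 1) / (N + 2)) |>.congr_deriv ?_
    simp only [hg, hz]
    field_simp
    ring
  have dz : ∀ ρ, 0 ≤ ρ → HasDerivAt z
      (-z ρ ^ 2 * (2 * a ρ + 2 * ρ * (a ρ * (y ρ / 2 - a ρ)))) ρ := by
    intro ρ hρ
    have h3 := hden ρ hρ
    refine (((((hasDerivAt_id ρ).const_mul 2).mul (da ρ hρ)).const_add l).inv h3.ne').congr_deriv ?_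
    simp only [hz, id, Pi.mul_apply]
    field_simp
  have dg : ∀ ρ, 0 ≤ ρ → HasDerivAt g (g' ρ) ρ := by
    intro ρ hρ
    refine (((da ρ hρ).mul ((((dv ρ hρ).sub_const (1 / 2)).mul (dz ρ hρ)).const_add 1)).const_mul
      (-(N + 1))).congr_deriv ?_
    simp only [hg', hz, Pi.mul_apply]
    ring
  set w : (Fin (m + 1) → ℝ) → ℝ := fun x => Real.exp (L0 (rho x) + (N + 1) * Real.log (u x)) with hw
  have hwe : (fun x' => (hess u x').det ^ (-(N + 1) / (N + 2))) = w := by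
    funext x
    have h1 := ha _ (rho_nonneg x)
    have h2 := hv _ (rho_nonneg x)
    have h3 := hupos x
    have h5 := hEpos (rho x)
    have h4 : 0 < N + 2 := by rw [hN2]; linarith
    have h6 : (hess u x).det = Real.exp ((N - 1) * Real.log (2 * a (rho x)) + 2 * N * S (rho x) +
        Real.log (v (rho x)) - (N + 2) * Real.log (u x)) := by
      rw [hdet x]
      have e1 : N - 1 = ((k + 1 : ℕ) : ℝ) := by rw [hN2]; push_cast; ring
      have e2 : 2 * N * S (rho x) = ((k + 2 : ℕ) : ℝ) * (2 * S (rho x)) := by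
        rw [hN2]; push_cast; ring
      have e3 : N + 2 = ((k + 4 : ℕ) : ℝ) := by rw [hN2]; push_cast; ring
      rw [e1, e2, e3, Real.exp_sub, Real.exp_add, Real.exp_add, Real.exp_nat_mul, Real.exp_nat_mul,
        Real.exp_nat_mul, Real.exp_log (by positivity), Real.exp_log h2, Real.exp_log h3]
      change _ = _ * E (rho x) ^ (k + 2) * _ / _
      simp only [mul_pow, inv_pow]
      field_simp
      ring
    rw [h6, ← Real.exp_mul, hw]
    simp only [hL0]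
    congr 1
    field_simp
    ring
  rw [hwe]
  set A : (Fin (m + 1) → ℝ) → ℝ := fun x =>
    g (rho x) + (N + 1) * (a (rho x) * E (rho x) * (u x)⁻¹ ^ 2) with hA
  set B : (Fin (m + 1) → ℝ) → ℝ := fun x => (N + 1) * (x 0 * (u x)⁻¹ ^ 2) with hB
  set A₁ : (Fin (m + 1) → ℝ) → ℝ := fun x => g' (rho x) + (N + 1) *
    ((a (rho x) * (y (rho x) / 2 - a (rho x)) + 2 * a (rho x) ^ 2) * E (rho x) * (u x)⁻¹ ^ 2 -
      2 * a (rho x) ^ 2 * E (rho x) ^ 2 * (u x)⁻¹ ^ 4) with hA₁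
  set A₂ : (Fin (m + 1) → ℝ) → ℝ := fun x =>
    -(2 * (N + 1) * a (rho x) * E (rho x) * x 0 * (u x)⁻¹ ^ 4) with hA₂
  set B₂ : (Fin (m + 1) → ℝ) → ℝ := fun x =>
    (N + 1) * ((u x)⁻¹ ^ 2 - 2 * x 0 ^ 2 * (u x)⁻¹ ^ 4) with hB₂
  have Dw : HasD w (fun x => w x * A x) (fun x => w x * B x) := by
    have h1 := ((HasD.rad (m := m) dL0).add ((Du.comp (g := Real.log)
      (fun x => Real.hasDerivAt_log (hupos x).ne')).const_mul (N + 1))).comp (g := Real.exp)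
      (fun x => Real.hasDerivAt_exp _)
    refine h1.congr (fun x => ?_) (fun x => ?_)
    · simp only [hA, hw]; ring
    · simp only [hB, hw]; ring
  have DA' : HasD A A₁ A₂ := by
    have h1 := (HasD.rad (m := m) dg).add ((DA.mul Dui).const_mul (N + 1))
    have h2 : A = fun x => g (rho x) + (N + 1) * (a (rho x) * E (rho x) * (u x)⁻¹ * (u x)⁻¹) := by
      funext x; simp only [hA]; ring
    rw [h2]
    refine h1.congr (fun x => ?_) (fun x => ?_)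
    · simp only [hA₁]; ring
    · simp only [hA₂]; ring
  have DB' : HasD B A₂ B₂ := by
    have h1 := ((Dt.mul Dui).mul Dui).const_mul (N + 1)
    have h2 : B = fun x => (N + 1) * (x 0 * (u x)⁻¹ * (u x)⁻¹) := by
      funext x; simp only [hB]; ring
    rw [h2]
    refine h1.congr (fun x => ?_) (fun x => ?_)
    · simp only [hA₂]; ring
    · simp only [hB₂]; ring
  have Hw := fun x => Dw.hess_eq (A₁ := fun x => w x * (A x ^ 2 + A₁ x))
    (A₂ := fun x => w x * (A x * B x + A₂ x)) (B₂ := fun x => w x * (B x ^ 2 + B₂ x))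
    ((Dw.mul DA').congr (fun x => by ring) (fun x => by ring))
    ((Dw.mul DB').congr (fun x => by ring) (fun x => by ring)) x
  intro x
  simp only [mul_assoc, ← Finset.mul_sum]
  apply mul_eq_zero_of_right
  rw [Hw x, Hu x, MM_inv (ρ := rho x) rfl (xh_e0 x) e0_e0 (hαpos x).ne' (hΔpos x).ne' (hΔ x),
    MM_sum (ρ := rho x) rfl (xh_e0 x) e0_e0]
  have hc : (Fintype.card (Fin (m + 1)) : ℝ) = N := by rw [hN]; simp
  rw [hc]
  have hρ := rho_nonneg x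
  exact trace_identity (hupos x) (ha _ hρ) (hEpos _) (hv _ hρ) (hu2 x) (hy _ hρ)
    (ode_identity (z := z (rho x)) hl (hy _ hρ) (inv_mul_cancel₀ (hden _ hρ).ne') rfl rfl)
    rfl rfl rfl rfl rfl rfl rfl rfl rfl rfl

end Vale.Agent.P252
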